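import Mathlib
import Crest.Agent.Helper52.PP.Count
import Crest.Agent.Helper52.PP.Perm

/-!
# Stabiliser leaves for the dense-regime counting (helper52; conditional package for row 55)

Two consequences of the stabiliser bound `hstab` (the exact form of `PP.card_stab_le`,
`E₀ = slots H f0`) for the host `E₀`:

* `dens_of_stab`  : every `A ⊆ E₀` has `1 ≤ 2 (n)_{v(A)} p^{|A|}`  (density);
* `codeg_of_stab` : if all slots between the disjoint vertex sets `B`, `Y` lie in `E₀`, then
  `|Y|! ≤ 2 (n)_{|B|+|Y|} p^{|B||Y|}`  (codegree / complete bipartite sub-hosts).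

Requested by helper68 (#5683, #5722) for the formalisation of helper16's Theorem D′
(`notes/s0076_helper16.md` §6).  Nothing here proves a spread bound.
-/

set_option autoImplicit false
set_option linter.unusedSectionVars false
set_option linter.unusedVariables false

namespace Crest.Agent.Helper52.S0076

open Finset Crest.CombinatoricsR.RandomGraph Crest.Agent.Helper52.PP

/-- A permutation sending every slot of `A` into `A` stabilises `A`. -/
lemma map_slotPerm_eq_of_forall_mem {n : ℕ} (σ : Equiv.Perm (Fin n)) (A : Finset (EdgeSlot n))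
    (h : ∀ s ∈ A, slotPerm σ s ∈ A) : A.map (slotPerm σ).toEmbedding = A := by
  apply Finset.eq_of_subset_of_card_le
  · intro t ht
    rw [Finset.mem_map] at ht
    obtain ⟨s, hs, rfl⟩ := ht
    exact h s hs
  · rw [Finset.card_map]

/-- At least `(n - |V|)!` permutations fix the finite set `V` pointwise. -/
lemma factorial_le_card_fix {n : ℕ} (V : Finset (Fin n)) :
    (n - V.card).factorial ≤
      (Finset.univ.filter (fun σ : Equiv.Perm (Fin n) => ∀ x ∈ V, σ x = x)).card := by
  classical
  have hcard : Fintype.card (Equiv.Perm {x : Fin n // x ∉ V}) = (n - V.card).factorial := by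
    rw [Fintype.card_perm, Fintype.card_subtype_compl, Fintype.card_fin, Fintype.card_coe]
  rw [← hcard, ← Finset.card_univ]
  apply Finset.card_le_card_of_injOn (fun τ => Equiv.Perm.ofSubtype τ)
  · intro τ _
    simp only [Finset.coe_filter, Finset.mem_univ, true_and, Set.mem_ofPred_eq]
    intro x hx
    exact Equiv.Perm.ofSubtype_apply_of_not_mem τ (fun hn => hn hx)
  · intro τ _ τ' _ h
    exact Equiv.Perm.ofSubtype_injective h

/-- (L1) **Density from the stabiliser bound**: every sub-host `A ⊆ E₀` satisfies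
`1 ≤ 2 (n)_{v(A)} p^{|A|}`. -/
theorem dens_of_stab {n : ℕ} (E₀ : Finset (EdgeSlot n)) (p : ℝ) (hp0 : 0 ≤ p)
    (hstab : ∀ A ⊆ E₀, (((Finset.univ.filter (fun σ : Equiv.Perm (Fin n) =>
        A.map (slotPerm σ).toEmbedding = A)).card : ℕ) : ℝ)
          ≤ 2 * (n.factorial : ℝ) * p ^ A.card)
    (A : Finset (EdgeSlot n)) (hA : A ⊆ E₀) :
    (1 : ℝ) ≤ 2 * (n.descFactorial (vset A).card : ℝ) * p ^ A.card := by
  classical
  have hV : (vset A).card ≤ n := by
    have := Finset.card_le_univ (vset A)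
    rwa [Fintype.card_fin] at this
  have hsub : (Finset.univ.filter (fun σ : Equiv.Perm (Fin n) => ∀ x ∈ vset A, σ x = x))
      ⊆ Finset.univ.filter (fun σ : Equiv.Perm (Fin n) =>
          A.map (slotPerm σ).toEmbedding = A) := by
    intro σ hσ
    rw [Finset.mem_filter] at hσ ⊢
    refine ⟨Finset.mem_univ _, ?_⟩
    apply map_slotPerm_eq_of_forall_mem
    intro s hs
    have hfix : slotPerm σ s = s := by
      apply Subtype.ext
      rw [slotPerm_val]
      obtain ⟨a, b, hab⟩ : ∃ a b : Fin n, s.1 = s(a, b) :=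
        Sym2.ind (fun a b => ⟨a, b, rfl⟩) s.1
      have ha : a ∈ vset A :=
        (mem_vset A a).2 ⟨s, hs, by rw [hab]; exact Sym2.mem_mk_left a b⟩
      have hb : b ∈ vset A :=
        (mem_vset A b).2 ⟨s, hs, by rw [hab]; exact Sym2.mem_mk_right a b⟩
      rw [hab, Sym2.map_mk, hσ.2 a ha, hσ.2 b hb]
    rw [hfix]
    exact hs
  have h1 := factorial_le_card_fix (vset A)
  have h2 := Finset.card_le_card hsub
  have h3 := hstab A hA
  have hfac := Nat.factorial_mul_descFactorial hV
  have hpos : (0 : ℝ) < ((n - (vset A).card).factorial : ℝ) := by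
    exact_mod_cast Nat.factorial_pos _
  have h4 : (((n - (vset A).card).factorial : ℕ) : ℝ) ≤ 2 * (n.factorial : ℝ) * p ^ A.card := by
    refine le_trans ?_ h3
    exact_mod_cast le_trans h1 h2
  rw [← hfac] at h4
  push_cast at h4
  have h5 : ((n - (vset A).card).factorial : ℝ) * 1
      ≤ ((n - (vset A).card).factorial : ℝ)
          * (2 * (n.descFactorial (vset A).card : ℝ) * p ^ A.card) := by
    calc ((n - (vset A).card).factorial : ℝ) * 1
        = ((n - (vset A).card).factorial : ℝ) := mul_one _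
      _ ≤ 2 * (((n - (vset A).card).factorial : ℝ) * (n.descFactorial (vset A).card : ℝ))
            * p ^ A.card := h4
      _ = ((n - (vset A).card).factorial : ℝ)
            * (2 * (n.descFactorial (vset A).card : ℝ) * p ^ A.card) := by ring
  exact le_of_mul_le_mul_left h5 hpos

/-- (L3) **Codegree from the stabiliser bound**: if every slot between the disjoint vertex sets
`B` and `Y` belongs to the host `E₀`, then `|Y|! ≤ 2 (n)_{|B|+|Y|} p^{|B||Y|}`. -/
theorem codeg_of_stab {n : ℕ} (E₀ : Finset (EdgeSlot n)) (p : ℝ) (hp0 : 0 ≤ p)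
    (hstab : ∀ A ⊆ E₀, (((Finset.univ.filter (fun σ : Equiv.Perm (Fin n) =>
        A.map (slotPerm σ).toEmbedding = A)).card : ℕ) : ℝ)
          ≤ 2 * (n.factorial : ℝ) * p ^ A.card)
    (B Y : Finset (Fin n)) (hBY : Disjoint B Y)
    (hall : ∀ x ∈ B, ∀ y ∈ Y, ∃ s ∈ E₀, s.1 = s(x, y)) :
    (Y.card.factorial : ℝ)
      ≤ 2 * (n.descFactorial (B.card + Y.card) : ℝ) * p ^ (B.card * Y.card) := by
  classical
  set A : Finset (EdgeSlot n) :=
    E₀.filter (fun s => ∃ x ∈ B, ∃ y ∈ Y, s.1 = s(x, y)) with hAdef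
  have hAE : A ⊆ E₀ := Finset.filter_subset _ _
  have hne : ∀ x ∈ B, ∀ y ∈ Y, x ≠ y :=
    fun x hx y hy h => Finset.disjoint_left.1 hBY hx (h ▸ hy)
  have hnd : ∀ q : Fin n × Fin n, q ∈ B ×ˢ Y → ¬ (s(q.1, q.2) : Sym2 (Fin n)).IsDiag := by
    intro q hq
    rw [Finset.mem_product] at hq
    rw [Sym2.mk_isDiag_iff]
    exact hne q.1 hq.1 q.2 hq.2
  -- the slots between `B` and `Y` number `|B| |Y|`
  have hAcard : A.card = B.card * Y.card := by
    rw [← Finset.card_product]
    symm
    refine Finset.card_bij (fun q hq => (⟨s(q.1, q.2), hnd q hq⟩ : EdgeSlot n)) ?_ ?_ ?_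
    · intro q hq
      have hq' := Finset.mem_product.1 hq
      obtain ⟨s, hsE, hs⟩ := hall q.1 hq'.1 q.2 hq'.2
      have hseq : s = (⟨s(q.1, q.2), hnd q hq⟩ : EdgeSlot n) := Subtype.ext hs
      rw [← hseq, hAdef, Finset.mem_filter]
      exact ⟨hsE, q.1, hq'.1, q.2, hq'.2, hs⟩
    · intro q hq q' hq' h
      have hq1 := Finset.mem_product.1 hq
      have hq2 := Finset.mem_product.1 hq'
      have h' : (s(q.1, q.2) : Sym2 (Fin n)) = s(q'.1, q'.2) := congrArg Subtype.val h
      rw [Sym2.eq_iff] at h'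
      rcases h' with ⟨h1, h2⟩ | ⟨h1, h2⟩
      · exact Prod.ext h1 h2
      · exact absurd h1 (hne q.1 hq1.1 q'.2 hq2.2)
    · intro s hs
      rw [hAdef, Finset.mem_filter] at hs
      obtain ⟨hsE, x, hx, y, hy, hxy⟩ := hs
      exact ⟨(x, y), Finset.mem_product.2 ⟨hx, hy⟩, Subtype.ext hxy.symm⟩
  -- permutations fixing `B` pointwise and `Y` setwise stabilise `A`
  have hsub : (Finset.univ.filter (fun σ : Equiv.Perm (Fin n) =>
        (∀ x ∈ B, σ x = x) ∧ ∀ y ∈ Y, σ y ∈ Y))
      ⊆ Finset.univ.filter (fun σ : Equiv.Perm (Fin n) =>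
          A.map (slotPerm σ).toEmbedding = A) := by
    intro σ hσ
    rw [Finset.mem_filter] at hσ ⊢
    refine ⟨Finset.mem_univ _, ?_⟩
    apply map_slotPerm_eq_of_forall_mem
    intro s hs
    rw [hAdef, Finset.mem_filter] at hs
    obtain ⟨-, x, hx, y, hy, hxy⟩ := hs
    obtain ⟨s', hs'E, hs'⟩ := hall x hx (σ y) (hσ.2.2 y hy)
    have hseq : slotPerm σ s = s' := by
      apply Subtype.ext
      rw [slotPerm_val, hxy, Sym2.map_mk, hσ.2.1 x hx, hs']
    rw [hseq, hAdef, Finset.mem_filter]
    exact ⟨hs'E, x, hx, σ y, hσ.2.2 y hy, hs'⟩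
  -- there are at least `|Y|! (n - |B| - |Y|)!` such permutations
  have hUcard : (B ∪ Y).card = B.card + Y.card := Finset.card_union_of_disjoint hBY
  have hU : B.card + Y.card ≤ n := by
    have := Finset.card_le_univ (B ∪ Y)
    rwa [Fintype.card_fin, hUcard] at this
  have hcount : Y.card.factorial * (n - (B.card + Y.card)).factorial
      ≤ (Finset.univ.filter (fun σ : Equiv.Perm (Fin n) =>
        (∀ x ∈ B, σ x = x) ∧ ∀ y ∈ Y, σ y ∈ Y)).card := by
    have hcard : Fintype.card (Equiv.Perm {a : Fin n // a ∈ Y}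
        × Equiv.Perm {a : Fin n // a ∉ B ∪ Y})
        = Y.card.factorial * (n - (B.card + Y.card)).factorial := by
      rw [Fintype.card_prod, Fintype.card_perm, Fintype.card_perm, Fintype.card_coe,
        Fintype.card_subtype_compl, Fintype.card_fin, Fintype.card_coe, hUcard]
    rw [← hcard, ← Finset.card_univ]
    apply Finset.card_le_card_of_injOn
      (fun q : Equiv.Perm {a : Fin n // a ∈ Y} × Equiv.Perm {a : Fin n // a ∉ B ∪ Y} =>
        Equiv.Perm.ofSubtype q.1 * Equiv.Perm.ofSubtype q.2)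
    · rintro ⟨τ, ρ⟩ -
      simp only [Finset.coe_filter, Finset.mem_univ, true_and, Set.mem_ofPred_eq]
      constructor
      · intro x hx
        have hxU : ¬ (x ∉ B ∪ Y) := fun hn => hn (Finset.mem_union_left _ hx)
        have hxY : x ∉ Y := fun hy => hne x hx x hy rfl
        rw [Equiv.Perm.mul_apply, Equiv.Perm.ofSubtype_apply_of_not_mem ρ hxU,
          Equiv.Perm.ofSubtype_apply_of_not_mem τ hxY]
      · intro y hy
        have hyU : ¬ (y ∉ B ∪ Y) := fun hn => hn (Finset.mem_union_right _ hy)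
        rw [Equiv.Perm.mul_apply, Equiv.Perm.ofSubtype_apply_of_not_mem ρ hyU,
          Equiv.Perm.ofSubtype_apply_of_mem τ hy]
        exact (τ ⟨y, hy⟩).2
    · rintro ⟨τ, ρ⟩ - ⟨τ', ρ'⟩ - h
      have h' : ∀ a : Fin n,
          Equiv.Perm.ofSubtype τ (Equiv.Perm.ofSubtype ρ a)
            = Equiv.Perm.ofSubtype τ' (Equiv.Perm.ofSubtype ρ' a) := by
        intro a
        have := congrArg (fun σ : Equiv.Perm (Fin n) => σ a) h
        simpa only [Equiv.Perm.mul_apply] using this
      have hτ : τ = τ' := by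
        apply Equiv.ext
        rintro ⟨y, hy⟩
        apply Subtype.ext
        have hyU : ¬ (y ∉ B ∪ Y) := fun hn => hn (Finset.mem_union_right _ hy)
        have := h' y
        rw [Equiv.Perm.ofSubtype_apply_of_not_mem ρ hyU,
          Equiv.Perm.ofSubtype_apply_of_not_mem ρ' hyU,
          Equiv.Perm.ofSubtype_apply_of_mem τ hy, Equiv.Perm.ofSubtype_apply_of_mem τ' hy] at this
        exact this
      have hρ : ρ = ρ' := by
        apply Equiv.ext
        rintro ⟨z, hz⟩
        apply Subtype.ext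
        have := h' z
        rw [Equiv.Perm.ofSubtype_apply_of_mem ρ hz, Equiv.Perm.ofSubtype_apply_of_mem ρ' hz]
          at this
        have h1 : ((ρ ⟨z, hz⟩ : {a : Fin n // a ∉ B ∪ Y}) : Fin n) ∉ Y :=
          fun hmem => (ρ ⟨z, hz⟩).2 (Finset.mem_union_right _ hmem)
        have h2 : ((ρ' ⟨z, hz⟩ : {a : Fin n // a ∉ B ∪ Y}) : Fin n) ∉ Y :=
          fun hmem => (ρ' ⟨z, hz⟩).2 (Finset.mem_union_right _ hmem)
        rw [Equiv.Perm.ofSubtype_apply_of_not_mem τ h1,
          Equiv.Perm.ofSubtype_apply_of_not_mem τ' h2] at this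
        exact this
      rw [hτ, hρ]
  have h2 := Finset.card_le_card hsub
  have h3 := hstab A hAE
  rw [hAcard] at h3
  have hfac := Nat.factorial_mul_descFactorial hU
  have hpos : (0 : ℝ) < ((n - (B.card + Y.card)).factorial : ℝ) := by
    exact_mod_cast Nat.factorial_pos _
  have h4 : ((Y.card.factorial * (n - (B.card + Y.card)).factorial : ℕ) : ℝ)
      ≤ 2 * (n.factorial : ℝ) * p ^ (B.card * Y.card) := by
    refine le_trans ?_ h3
    exact_mod_cast le_trans hcount h2
  rw [← hfac] at h4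
  push_cast at h4
  have h5 : ((n - (B.card + Y.card)).factorial : ℝ) * (Y.card.factorial : ℝ)
      ≤ ((n - (B.card + Y.card)).factorial : ℝ)
          * (2 * (n.descFactorial (B.card + Y.card) : ℝ) * p ^ (B.card * Y.card)) := by
    calc ((n - (B.card + Y.card)).factorial : ℝ) * (Y.card.factorial : ℝ)
        = (Y.card.factorial : ℝ) * ((n - (B.card + Y.card)).factorial : ℝ) := mul_comm _ _
      _ ≤ 2 * (((n - (B.card + Y.card)).factorial : ℝ)
            * (n.descFactorial (B.card + Y.card) : ℝ)) * p ^ (B.card * Y.card) := h4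
      _ = ((n - (B.card + Y.card)).factorial : ℝ)
            * (2 * (n.descFactorial (B.card + Y.card) : ℝ) * p ^ (B.card * Y.card)) := by ring
  exact le_of_mul_le_mul_left h5 hpos

end Crest.Agent.Helper52.S0076
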