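import Mathlib

/-!
# Numerics for the closure theorem (helper52; conditional package for row 55)

`closure_numeric` is leaf (M4) of helper77's formalisation of helper68's closure-type packing
(`notes/s0076_helper68_closure.md`, `θ = 1/4`, `n p ≤ 1`), with the exact statement of board
message #6712.  Backup copy (helper63 was asked for the same statement).  Mathlib only; nothing
here proves a spread bound.
-/

set_option autoImplicit false
set_option linter.unusedSectionVars false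
set_option linter.unusedVariables false

namespace Crest.Agent.Helper52.S0076

/-- `exp (25/16) ≤ 11/2`. -/
lemma exp_25_16_le : Real.exp (25 / 16) ≤ 11 / 2 := by
  have he1 : Real.exp 1 < 2.72 := lt_trans Real.exp_one_lt_d9 (by norm_num)
  have h1 : Real.exp (25 / 16) ^ 16 = Real.exp 1 ^ 25 := by
    rw [← Real.exp_nat_mul, ← Real.exp_nat_mul]
    norm_num
  have h2 : Real.exp 1 ^ 25 ≤ (2.72 : ℝ) ^ 25 :=
    pow_le_pow_left₀ (Real.exp_pos 1).le he1.le 25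
  have h3 : (2.72 : ℝ) ^ 25 ≤ (11 / 2 : ℝ) ^ 16 := by norm_num
  have h4 : Real.exp (25 / 16) ^ 16 ≤ (11 / 2 : ℝ) ^ 16 := by
    rw [h1]; exact le_trans h2 h3
  exact le_of_pow_le_pow_left₀ (by norm_num) (by norm_num) h4

/-- `exp x - 1 ≤ x * exp x`. -/
lemma exp_sub_one_le (x : ℝ) : Real.exp x - 1 ≤ x * Real.exp x := by
  have h1 : -x + 1 ≤ Real.exp (-x) := Real.add_one_le_exp (-x)
  have h2 : Real.exp x * Real.exp (-x) = 1 := by rw [← Real.exp_add]; simp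
  have h3 : Real.exp x * (-x + 1) ≤ Real.exp x * Real.exp (-x) :=
    mul_le_mul_of_nonneg_left h1 (Real.exp_pos x).le
  nlinarith

/-- **(M4)** The numerical inequality of the closure theorem (`θ = 1/4`, `n p ≤ 1`). -/
theorem closure_numeric (n v e : ℕ) (p : ℝ) (hp : 0 < p) (hnp : (n : ℝ) * p ≤ 1) (hvn : v ≤ n)
    (hv : v ≤ 2 * e) (he : 1 ≤ e) :
    2 * Real.exp 1 * (4 : ℝ) ^ (v - 1) * (v : ℝ) * ((25 / 16 : ℝ) * p) ^ e
        * (1 + (25 / 16 : ℝ) * p) ^ (v ^ 2)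
        * Real.exp (2 * (n : ℝ) * ((1 + (25 / 16 : ℝ) * p) ^ v - 1))
      ≤ (Real.exp 45 * p) ^ e := by
  have hV0 : (0 : ℝ) ≤ (v : ℝ) := Nat.cast_nonneg v
  have hE1 : (1 : ℝ) ≤ (e : ℝ) := by exact_mod_cast he
  have hVE : (v : ℝ) ≤ 2 * (e : ℝ) := by exact_mod_cast hv
  have hVn : (v : ℝ) ≤ (n : ℝ) := by exact_mod_cast hvn
  have hn0 : (0 : ℝ) ≤ (n : ℝ) := Nat.cast_nonneg n
  have hpV : p * (v : ℝ) ≤ 1 := by
    calc p * (v : ℝ) ≤ p * (n : ℝ) := mul_le_mul_of_nonneg_left hVn hp.le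
      _ = (n : ℝ) * p := mul_comm _ _
      _ ≤ 1 := hnp
  have hq0 : (0 : ℝ) ≤ 25 / 16 * p := by positivity
  have he2 : (2 : ℝ) ≤ Real.exp 1 := by
    have := Real.add_one_le_exp (1 : ℝ); linarith
  -- (a)
  have ha : 2 * Real.exp 1 ≤ Real.exp 2 := by
    have h : Real.exp 2 = Real.exp 1 * Real.exp 1 := by rw [← Real.exp_add]; norm_num
    rw [h]
    exact mul_le_mul_of_nonneg_right he2 (Real.exp_pos 1).le
  -- (b)
  have hlog2 : Real.log 2 < 0.7 := lt_trans Real.log_two_lt_d9 (by norm_num)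
  have h8 : (8 : ℝ) ≤ Real.exp 2.1 := by
    have h1 : (8 : ℝ) = Real.exp (Real.log 8) := (Real.exp_log (by norm_num)).symm
    have h2 : Real.log 8 = 3 * Real.log 2 := by
      have h : (8 : ℝ) = 2 ^ 3 := by norm_num
      rw [h, Real.log_pow]; norm_num
    rw [h1, h2]
    apply Real.exp_le_exp.2
    linarith
  have hb : (4 : ℝ) ^ (v - 1) * (v : ℝ) ≤ Real.exp (2.1 * (v : ℝ)) := by
    have h1 : (4 : ℝ) ^ (v - 1) ≤ 4 ^ v := pow_le_pow_right₀ (by norm_num) (Nat.sub_le v 1)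
    have h2 : (v : ℝ) ≤ 2 ^ v := by exact_mod_cast (Nat.lt_two_pow_self (n := v)).le
    have h3 : (4 : ℝ) ^ v * 2 ^ v = 8 ^ v := by rw [← mul_pow]; norm_num
    have h4 : (8 : ℝ) ^ v ≤ Real.exp (2.1 * (v : ℝ)) := by
      have h : Real.exp (2.1 * (v : ℝ)) = Real.exp 2.1 ^ v := by
        rw [mul_comm]; exact Real.exp_nat_mul _ _
      rw [h]
      exact pow_le_pow_left₀ (by norm_num) h8 v
    calc (4 : ℝ) ^ (v - 1) * (v : ℝ) ≤ 4 ^ v * 2 ^ v := mul_le_mul h1 h2 hV0 (by positivity)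
      _ = 8 ^ v := h3
      _ ≤ _ := h4
  -- (c)
  have hc : ((25 / 16 : ℝ) * p) ^ e ≤ Real.exp (e : ℝ) * p ^ e := by
    rw [mul_pow]
    apply mul_le_mul_of_nonneg_right _ (pow_nonneg hp.le e)
    have h : Real.exp (e : ℝ) = Real.exp 1 ^ e := by
      have := Real.exp_nat_mul 1 e
      rw [mul_one] at this
      exact this
    rw [h]
    exact pow_le_pow_left₀ (by norm_num) (by linarith) e
  -- (d)
  have hd : (1 + (25 / 16 : ℝ) * p) ^ (v ^ 2) ≤ Real.exp (25 / 16 * (v : ℝ)) := by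
    have h1 : 1 + (25 / 16 : ℝ) * p ≤ Real.exp (25 / 16 * p) := by
      have := Real.add_one_le_exp (25 / 16 * p); linarith
    have h2 : (1 + (25 / 16 : ℝ) * p) ^ (v ^ 2) ≤ Real.exp (25 / 16 * p) ^ (v ^ 2) :=
      pow_le_pow_left₀ (by positivity) h1 _
    have h3 : Real.exp (25 / 16 * p) ^ (v ^ 2) = Real.exp (((v ^ 2 : ℕ) : ℝ) * (25 / 16 * p)) :=
      (Real.exp_nat_mul _ _).symm
    rw [h3] at h2
    refine le_trans h2 (Real.exp_le_exp.2 ?_)
    push_cast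
    have h4 : (v : ℝ) ^ 2 * (25 / 16 * p) = 25 / 16 * (p * (v : ℝ)) * (v : ℝ) := by ring
    rw [h4]
    have h5 : 25 / 16 * (p * (v : ℝ)) ≤ 25 / 16 := by nlinarith
    nlinarith
  -- (e)
  have hx0 : (0 : ℝ) ≤ 25 / 16 * p * (v : ℝ) := by positivity
  have hx1 : 25 / 16 * p * (v : ℝ) ≤ 25 / 16 := by nlinarith
  have he' : 2 * (n : ℝ) * ((1 + (25 / 16 : ℝ) * p) ^ v - 1) ≤ 17.1875 * (v : ℝ) := by
    have h1 : 1 + (25 / 16 : ℝ) * p ≤ Real.exp (25 / 16 * p) := by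
      have := Real.add_one_le_exp (25 / 16 * p); linarith
    have h2 : (1 + (25 / 16 : ℝ) * p) ^ v ≤ Real.exp (25 / 16 * p * (v : ℝ)) := by
      have h : Real.exp (25 / 16 * p * (v : ℝ)) = Real.exp (25 / 16 * p) ^ v := by
        rw [mul_comm]; exact Real.exp_nat_mul _ _
      rw [h]
      exact pow_le_pow_left₀ (by positivity) h1 v
    have h3 : Real.exp (25 / 16 * p * (v : ℝ)) - 1
        ≤ 25 / 16 * p * (v : ℝ) * Real.exp (25 / 16 * p * (v : ℝ)) := exp_sub_one_le _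
    have h4 : Real.exp (25 / 16 * p * (v : ℝ)) ≤ 11 / 2 :=
      le_trans (Real.exp_le_exp.2 hx1) exp_25_16_le
    have h5 : (1 + (25 / 16 : ℝ) * p) ^ v - 1 ≤ 25 / 16 * p * (v : ℝ) * (11 / 2) := by
      have h6 : 25 / 16 * p * (v : ℝ) * Real.exp (25 / 16 * p * (v : ℝ))
          ≤ 25 / 16 * p * (v : ℝ) * (11 / 2) := mul_le_mul_of_nonneg_left h4 hx0
      linarith
    have h7 : 2 * (n : ℝ) * ((1 + (25 / 16 : ℝ) * p) ^ v - 1)
        ≤ 2 * (n : ℝ) * (25 / 16 * p * (v : ℝ) * (11 / 2)) :=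
      mul_le_mul_of_nonneg_left h5 (by positivity)
    have h8' : 2 * (n : ℝ) * (25 / 16 * p * (v : ℝ) * (11 / 2))
        = 17.1875 * ((n : ℝ) * p) * (v : ℝ) := by ring
    have h9 : 17.1875 * ((n : ℝ) * p) * (v : ℝ) ≤ 17.1875 * (v : ℝ) := by
      have : 17.1875 * ((n : ℝ) * p) ≤ 17.1875 := by nlinarith
      nlinarith
    linarith
  have hefac : Real.exp (2 * (n : ℝ) * ((1 + (25 / 16 : ℝ) * p) ^ v - 1))
      ≤ Real.exp (17.1875 * (v : ℝ)) := Real.exp_le_exp.2 he'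
  -- assembly
  have hLHS : 2 * Real.exp 1 * (4 : ℝ) ^ (v - 1) * (v : ℝ) * ((25 / 16 : ℝ) * p) ^ e
        * (1 + (25 / 16 : ℝ) * p) ^ (v ^ 2)
        * Real.exp (2 * (n : ℝ) * ((1 + (25 / 16 : ℝ) * p) ^ v - 1))
      = (2 * Real.exp 1) * ((4 : ℝ) ^ (v - 1) * (v : ℝ)) * (((25 / 16 : ℝ) * p) ^ e)
        * ((1 + (25 / 16 : ℝ) * p) ^ (v ^ 2))
        * Real.exp (2 * (n : ℝ) * ((1 + (25 / 16 : ℝ) * p) ^ v - 1)) := by ring
  rw [hLHS]
  have hstep : (2 * Real.exp 1) * ((4 : ℝ) ^ (v - 1) * (v : ℝ)) * (((25 / 16 : ℝ) * p) ^ e)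
        * ((1 + (25 / 16 : ℝ) * p) ^ (v ^ 2))
        * Real.exp (2 * (n : ℝ) * ((1 + (25 / 16 : ℝ) * p) ^ v - 1))
      ≤ Real.exp 2 * Real.exp (2.1 * (v : ℝ)) * (Real.exp (e : ℝ) * p ^ e)
        * Real.exp (25 / 16 * (v : ℝ)) * Real.exp (17.1875 * (v : ℝ)) := by
    have hpe : (0 : ℝ) ≤ p ^ e := pow_nonneg hp.le e
    gcongr
  refine le_trans hstep ?_
  have hfin : Real.exp 2 * Real.exp (2.1 * (v : ℝ)) * (Real.exp (e : ℝ) * p ^ e)
        * Real.exp (25 / 16 * (v : ℝ)) * Real.exp (17.1875 * (v : ℝ))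
      = Real.exp (2 + 2.1 * (v : ℝ) + (e : ℝ) + 25 / 16 * (v : ℝ) + 17.1875 * (v : ℝ)) * p ^ e := by
    rw [Real.exp_add, Real.exp_add, Real.exp_add, Real.exp_add]
    ring
  rw [hfin, mul_pow]
  apply mul_le_mul_of_nonneg_right _ (pow_nonneg hp.le e)
  have h45 : Real.exp 45 ^ e = Real.exp ((e : ℝ) * 45) := (Real.exp_nat_mul 45 e).symm
  rw [h45]
  apply Real.exp_le_exp.2
  nlinarith

end Crest.Agent.Helper52.S0076
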