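import Crest.Agent.Helper68.S0076.GraphDefs
import Crest.Agent.Helper52.PP.Stab

/-!
# S0076 log-spread squad, leaves GL1 and GL2 (helper52)

The graph-side glue in the exact form of `Crest.Agent.Helper68.S0076.BlueprintGraph`:

* `slotImage_trans`, `card_perm_embed` (GL1): embeddings versus permutations;
* `stab_le_of_hE` (GL2): the hypothesis `hE` of statement S0076 in stabiliser form.

The proofs are the ones of `Crest.Agent.Helper52.PP.{Perm, Stab}`, transported along
`slotImage = slots` and `σ • A = A.map (slotPerm σ)`.  Conditional infrastructure: nothing here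
proves a spread bound.
-/

set_option autoImplicit false
set_option linter.unusedSectionVars false

namespace Crest.Agent.Helper52.S0076

open Finset Crest.Agent.Helper68.S0076 Crest.Agent.Helper68 Crest.CombinatoricsR.RandomGraph
open scoped Pointwise

variable {n : ℕ} {W : Type} [Fintype W] [DecidableEq W]

/-- helper68's `slotImage` is helper52's `slots`. -/
lemma slotImage_eq_slots (H : SimpleGraph W) [DecidableRel H.Adj] (f : W ↪ Fin n) :
    PP.slotImage H f = Crest.Agent.Helper52.PP.slots H f := by
  ext s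
  rw [Crest.Agent.Helper52.PP.mem_slots]
  unfold PP.slotImage
  rw [Finset.mem_image]
  constructor
  · rintro ⟨⟨e, he⟩, -, rfl⟩
    induction e using Sym2.ind with
    | _ a b =>
      rw [SimpleGraph.mem_edgeFinset] at he
      exact ⟨a, b, he, rfl⟩
  · rintro ⟨a, b, hab, hs⟩
    refine ⟨⟨s(a, b), by rw [SimpleGraph.mem_edgeFinset]; exact hab⟩, Finset.mem_attach _ _, ?_⟩
    apply Subtype.ext
    rw [hs]
    rfl

/-- The pointwise action of a permutation on a set of slots is the `map` along `slotPerm`. -/
lemma smul_eq_map (σ : Equiv.Perm (Fin n)) (A : Finset (EdgeSlot n)) :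
    σ • A = A.map (Crest.Agent.Helper52.PP.slotPerm σ).toEmbedding := by
  rw [Finset.map_eq_image]
  rfl

/-! ## Leaf GL1 -/

theorem slotImage_trans (H : SimpleGraph W) [DecidableRel H.Adj] (f : W ↪ Fin n)
    (σ : Equiv.Perm (Fin n)) :
    PP.slotImage H (f.trans σ.toEmbedding) = σ • PP.slotImage H f := by
  rw [slotImage_eq_slots, slotImage_eq_slots, smul_eq_map,
    Crest.Agent.Helper52.PP.slots_trans]

theorem card_perm_embed (H : SimpleGraph W) [DecidableRel H.Adj] (f₀ : W ↪ Fin n)
    (T : Finset (EdgeSlot n)) :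
    (Finset.univ.filter (fun σ : Equiv.Perm (Fin n) => T ⊆ σ • PP.slotImage H f₀)).card
        * Fintype.card (W ↪ Fin n)
      = (Finset.univ.filter (fun f : W ↪ Fin n => T ⊆ PP.slotImage H f)).card * n.factorial := by
  classical
  have h1 := Crest.Agent.Helper52.PP.card_perm_subset H f₀ T
  have e1 : (Finset.univ.filter (fun σ : Equiv.Perm (Fin n) => T ⊆ σ • PP.slotImage H f₀))
      = (Finset.univ.filter (fun σ : Equiv.Perm (Fin n) =>
          T ⊆ (Crest.Agent.Helper52.PP.slots H f₀).map
            (Crest.Agent.Helper52.PP.slotPerm σ).toEmbedding)) := by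
    ext σ
    simp only [Finset.mem_filter, Finset.mem_univ, true_and]
    rw [slotImage_eq_slots, smul_eq_map]
  have e2 : (Finset.univ.filter (fun f : W ↪ Fin n => T ⊆ PP.slotImage H f))
      = (Finset.univ.filter (fun f : W ↪ Fin n => T ⊆ Crest.Agent.Helper52.PP.slots H f)) := by
    ext f
    simp only [Finset.mem_filter, Finset.mem_univ, true_and]
    rw [slotImage_eq_slots]
  rw [e1, e2, h1]
  have hW : Fintype.card W ≤ n := by
    have := Fintype.card_le_of_embedding f₀
    rwa [Fintype.card_fin] at this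
  rw [Fintype.card_embedding_eq, Fintype.card_fin, Nat.mul_assoc,
    Nat.factorial_mul_descFactorial hW]

/-! ## Leaf GL2 -/

theorem stab_le_of_hE (n : ℕ) (W : Type) [Fintype W] [DecidableEq W] (H : SimpleGraph W)
    [DecidableRel H.Adj] (p : ℝ) (hp0 : 0 ≤ p)
    (hE : ∀ F : H.Subgraph, (1 : ℝ) / 2 ≤
      Crest.CombinatoricsR.RandomGraph.gnpExpect n p (fun G => (G.copyCount F.coe : ℝ)))
    (f₀ : W ↪ Fin n) (A : Finset (EdgeSlot n)) (hA : A ⊆ PP.slotImage H f₀) :
    (stab (Equiv.Perm (Fin n)) A : ℝ) ≤ 2 * (n.factorial : ℝ) * p ^ A.card := by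
  classical
  rw [slotImage_eq_slots] at hA
  have h := Crest.Agent.Helper52.PP.card_stab_le H p hp0 hE f₀ A hA
  have e : stab (Equiv.Perm (Fin n)) A
      = (Finset.univ.filter (fun σ : Equiv.Perm (Fin n) =>
          A.map (Crest.Agent.Helper52.PP.slotPerm σ).toEmbedding = A)).card := by
    unfold stab
    congr 1
    ext σ
    simp only [Finset.mem_filter, Finset.mem_univ, true_and]
    rw [smul_eq_map]
  rw [e]
  exact h

end Crest.Agent.Helper52.S0076
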