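import Crest.Agent.Helper68.S0076.Final

/-!
# S0076 from a spread bound for HUGE patterns only (helper52; conditional glue, row 55)

`s0076_of_hugeSpread` : the conclusion of statement S0076 follows from its hypotheses together
with a spread bound with constant `K₀` for the sets `T` of at least `t₀` edge slots only,

  `#{f : W ↪ Fin n | T ⊆ slotImage H f} ≤ (K₀ p)^|T| · #(W ↪ Fin n)`   for `t₀ ≤ |T|`,

as soon as `K₀ + 28.5 (⌊log₂ (2 t₀)⌋ + 1) ≤ 32 e^50`
(e.g. `t₀ = 2^(3·10^21)`, `K₀ = 8·10^22`).  Smaller sets are handled by the log-spread lemma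
`Helper68.S0076.spread_of_hE`, small hosts by `Helper68.S0076.s0076_logSmall`.

The bound for huge patterns is NOT proved here: this is conditional infrastructure.
-/

set_option autoImplicit false

namespace Crest.Agent.Helper52.S0076

open Finset Crest.CombinatoricsR.RandomGraph Crest.Agent.Helper68
open Crest.Agent.Helper68.S0076 (spread_of_hE s0076_logSmall)
open scoped Pointwise

/-- At most `⌊log₂ (2 t₀)⌋ + 1` dyadic scales `h / 2^j` (`j ≤ ⌊log₂ h⌋`) are below `2 t₀`. -/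
lemma card_small_scales (h t₀ : ℕ) :
    ((Finset.range (Nat.log 2 h + 1)).filter (fun j => h / 2 ^ j < 2 * t₀)).card
      ≤ Nat.log 2 (2 * t₀) + 1 := by
  set L := Nat.log 2 h with hL
  set a := Nat.log 2 (2 * t₀) with ha
  have hsub : (Finset.range (L + 1)).filter (fun j => h / 2 ^ j < 2 * t₀)
      ⊆ Finset.Icc (L - a) L := by
    intro j hj
    rw [Finset.mem_filter, Finset.mem_range] at hj
    rw [Finset.mem_Icc]
    refine ⟨?_, by omega⟩
    by_contra hlt
    have hjL : j + a + 1 ≤ L := by omega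
    have h1 : 2 * t₀ < 2 ^ (a + 1) := Nat.lt_pow_succ_log_self (by norm_num) (2 * t₀)
    have hh : h ≠ 0 := by
      rintro rfl
      rw [hL, Nat.log_zero_right] at hjL
      omega
    have h2 : 2 ^ L ≤ h := Nat.pow_log_le_self 2 hh
    have h3 : 2 * t₀ * 2 ^ j ≤ h := by
      calc 2 * t₀ * 2 ^ j ≤ 2 ^ (a + 1) * 2 ^ j := Nat.mul_le_mul_right _ h1.le
        _ = 2 ^ (j + a + 1) := by rw [← pow_add]; congr 1; omega
        _ ≤ 2 ^ L := Nat.pow_le_pow_right (by norm_num) hjL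
        _ ≤ h := h2
    have h4 : 2 * t₀ ≤ h / 2 ^ j := (Nat.le_div_iff_mul_le (by positivity)).2 h3
    omega
  calc ((Finset.range (L + 1)).filter (fun j => h / 2 ^ j < 2 * t₀)).card
      ≤ (Finset.Icc (L - a) L).card := Finset.card_le_card hsub
    _ = L + 1 - (L - a) := Nat.card_Icc _ _
    _ ≤ a + 1 := by omega

/-- The numerical sum over the dyadic scales: the scales below `2 t₀` are charged with the
log-spread constant, all scales with `K₀`. -/
lemma sum_K_huge_le (h : ℕ) (hh : 1 ≤ h) (hbig : 8 * 10 ^ 21 < Nat.log 2 h + 4)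
    (t₀ : ℕ) (K₀ : ℝ) (hK₀ : 0 ≤ K₀)
    (hnum : K₀ + 28.5 * ((Nat.log 2 (2 * t₀) : ℝ) + 1) ≤ 32 * Real.exp 50) :
    ∑ j ∈ Finset.range (Nat.log 2 h + 1),
        (K₀ + (if h / 2 ^ j < 2 * t₀ then
          41 * max 1 (Real.log (2 * (h : ℝ) / ((h / 2 ^ j : ℕ) : ℝ))) else 0))
      ≤ 32 * Real.exp 50 * (1 + Real.logb 2 (h : ℝ)) := by
  set L := Nat.log 2 h with hL
  set a := Nat.log 2 (2 * t₀) with ha
  have hh0 : h ≠ 0 := by omega
  have hhr : (0 : ℝ) < (h : ℝ) := by exact_mod_cast hh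
  have h2L : 2 ^ L ≤ h := Nat.pow_log_le_self 2 hh0
  have hlt : h < 2 ^ (L + 1) := Nat.lt_pow_succ_log_self (by norm_num) h
  have hlog2 : (0 : ℝ) < Real.log 2 := Real.log_pos (by norm_num)
  have hlog2_lo : (0.6931471803 : ℝ) < Real.log 2 := Real.log_two_gt_d9
  have hlog2_hi : Real.log 2 < (0.6931471808 : ℝ) := Real.log_two_lt_d9
  have hL350 : (1000 : ℝ) ≤ (L : ℝ) := by
    have : 1000 ≤ L := by omega
    exact_mod_cast this
  clear hbig
  -- every term of the second kind is at most `41 (L+2) log 2`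
  have hterm : ∀ j ∈ Finset.range (L + 1),
      41 * max 1 (Real.log (2 * (h : ℝ) / ((h / 2 ^ j : ℕ) : ℝ)))
        ≤ 41 * (((L : ℝ) + 2) * Real.log 2) := by
    intro j hj
    rw [Finset.mem_range] at hj
    have hm1 : 1 ≤ h / 2 ^ j := by
      apply Nat.div_pos _ (by positivity)
      exact (Nat.pow_le_pow_right (by norm_num) (by omega)).trans h2L
    have hm1r : (1 : ℝ) ≤ ((h / 2 ^ j : ℕ) : ℝ) := by exact_mod_cast hm1
    have hle : 2 * (h : ℝ) / ((h / 2 ^ j : ℕ) : ℝ) ≤ 2 * (h : ℝ) :=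
      div_le_self (by positivity) hm1r
    have hpos : (0 : ℝ) < 2 * (h : ℝ) / ((h / 2 ^ j : ℕ) : ℝ) := by positivity
    have h2h : (2 * (h : ℝ)) ≤ (2 : ℝ) ^ (L + 2) := by
      have : 2 * h ≤ 2 ^ (L + 2) := by
        have := hlt
        rw [pow_succ] at this ⊢
        omega
      exact_mod_cast this
    have hlog : Real.log (2 * (h : ℝ) / ((h / 2 ^ j : ℕ) : ℝ)) ≤ ((L : ℝ) + 2) * Real.log 2 := by
      calc Real.log (2 * (h : ℝ) / ((h / 2 ^ j : ℕ) : ℝ))
          ≤ Real.log (2 * (h : ℝ)) := Real.log_le_log hpos hle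
        _ ≤ Real.log ((2 : ℝ) ^ (L + 2)) := Real.log_le_log (by positivity) h2h
        _ = ((L : ℝ) + 2) * Real.log 2 := by
            rw [Real.log_pow]; push_cast; ring
    have hone : (1 : ℝ) ≤ ((L : ℝ) + 2) * Real.log 2 := by nlinarith
    have := max_le hone hlog
    linarith
  rw [Finset.sum_add_distrib, Finset.sum_const, Finset.card_range, nsmul_eq_mul,
    ← Finset.sum_filter]
  have hsecond : ∑ j ∈ (Finset.range (L + 1)).filter (fun j => h / 2 ^ j < 2 * t₀),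
      41 * max 1 (Real.log (2 * (h : ℝ) / ((h / 2 ^ j : ℕ) : ℝ)))
      ≤ ((a : ℝ) + 1) * (41 * (((L : ℝ) + 2) * Real.log 2)) := by
    calc ∑ j ∈ (Finset.range (L + 1)).filter (fun j => h / 2 ^ j < 2 * t₀),
          41 * max 1 (Real.log (2 * (h : ℝ) / ((h / 2 ^ j : ℕ) : ℝ)))
        ≤ ∑ _j ∈ (Finset.range (L + 1)).filter (fun j => h / 2 ^ j < 2 * t₀),
          41 * (((L : ℝ) + 2) * Real.log 2) :=
          Finset.sum_le_sum (fun j hj => hterm j (Finset.mem_filter.1 hj).1)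
      _ = (((Finset.range (L + 1)).filter (fun j => h / 2 ^ j < 2 * t₀)).card : ℝ)
            * (41 * (((L : ℝ) + 2) * Real.log 2)) := by
          rw [Finset.sum_const, nsmul_eq_mul]
      _ ≤ ((a : ℝ) + 1) * (41 * (((L : ℝ) + 2) * Real.log 2)) := by
          apply mul_le_mul_of_nonneg_right _ (by positivity)
          have := card_small_scales h t₀
          exact_mod_cast this
  -- `41 (L+2) log 2 ≤ 28.5 (L+1)`
  have hkey : 41 * (((L : ℝ) + 2) * Real.log 2) ≤ 28.5 * ((L : ℝ) + 1) := by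
    have hL2 : (0 : ℝ) ≤ (L : ℝ) + 2 := by positivity
    have := mul_le_mul_of_nonneg_left hlog2_hi.le hL2
    linarith
  have ha0 : (0 : ℝ) ≤ (a : ℝ) + 1 := by positivity
  have hlogb : (L : ℝ) ≤ Real.logb 2 (h : ℝ) := by
    rw [Real.logb, le_div_iff₀ hlog2]
    have : ((2 : ℝ) ^ L) ≤ (h : ℝ) := by exact_mod_cast h2L
    calc (L : ℝ) * Real.log 2 = Real.log ((2 : ℝ) ^ L) := by rw [Real.log_pow]
      _ ≤ Real.log (h : ℝ) := Real.log_le_log (by positivity) this
  have hexp : (0 : ℝ) ≤ 32 * Real.exp 50 := by positivity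
  have hL1 : (0 : ℝ) ≤ (L : ℝ) + 1 := by positivity
  calc ((L + 1 : ℕ) : ℝ) * K₀
        + ∑ j ∈ (Finset.range (L + 1)).filter (fun j => h / 2 ^ j < 2 * t₀),
          41 * max 1 (Real.log (2 * (h : ℝ) / ((h / 2 ^ j : ℕ) : ℝ)))
      ≤ ((L : ℝ) + 1) * K₀ + ((a : ℝ) + 1) * (28.5 * ((L : ℝ) + 1)) := by
        push_cast
        have := mul_le_mul_of_nonneg_left hkey ha0
        linarith
    _ = ((L : ℝ) + 1) * (K₀ + 28.5 * ((a : ℝ) + 1)) := by ring
    _ ≤ ((L : ℝ) + 1) * (32 * Real.exp 50) := mul_le_mul_of_nonneg_left hnum hL1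
    _ ≤ 32 * Real.exp 50 * (1 + Real.logb 2 (h : ℝ)) := by nlinarith

/-- **S0076 from a spread bound for huge patterns only** (conditional glue; the hypothesis
`hhuge` is NOT proved anywhere). -/
theorem s0076_of_hugeSpread (n : ℕ) (hn : 2 ≤ n) (W : Type) [Fintype W] [DecidableEq W]
    (H : SimpleGraph W) [DecidableRel H.Adj] (hW : Fintype.card W ≤ n)
    (hH : 1 ≤ H.edgeFinset.card) (p : ℝ) (hp0 : 0 ≤ p) (hp1 : p ≤ 1)
    (hE : ∀ F : H.Subgraph, (1 : ℝ) / 2 ≤
      Crest.CombinatoricsR.RandomGraph.gnpExpect n p (fun G => (G.copyCount F.coe : ℝ)))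
    (t₀ : ℕ) (K₀ : ℝ) (hK₀ : 0 ≤ K₀)
    (hnum : K₀ + 28.5 * ((Nat.log 2 (2 * t₀) : ℝ) + 1) ≤ 32 * Real.exp 50)
    (hhuge : ∀ T : Finset (EdgeSlot n), t₀ ≤ T.card →
      ((Finset.univ.filter (fun f : W ↪ Fin n => T ⊆ PP.slotImage H f)).card : ℝ)
        ≤ (K₀ * p) ^ T.card * (Fintype.card (W ↪ Fin n) : ℝ)) :
    (1 : ℝ) / 2 ≤ Crest.CombinatoricsR.RandomGraph.gnpProb n
      (min 1 (2048 * Real.exp 50 * p * (1 + Real.logb 2 (H.edgeFinset.card : ℝ))))
      {G | H.IsContained G} := by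
  classical
  by_cases hsmall : Nat.log 2 H.edgeFinset.card + 4 ≤ 8 * 10 ^ 21
  · exact s0076_logSmall n hn W H hW hH p hp0 hp1 hE hsmall
  set h := H.edgeFinset.card with hh
  have hbig : 8 * 10 ^ 21 < Nat.log 2 h + 4 := not_le.1 hsmall
  have hsum := sum_K_huge_le h hH hbig t₀ K₀ hK₀ hnum
  clear hbig hsmall
  have hhr : (0 : ℝ) < (h : ℝ) := by exact_mod_cast hH
  refine PP.s0076_of_scaled_spread n W H hW p hp0
    (fun t => if t < t₀ then 41 * max 1 (Real.log ((h : ℝ) / t)) else K₀)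
    (fun m => K₀ + (if m < 2 * t₀ then 41 * max 1 (Real.log (2 * (h : ℝ) / m)) else 0))
    ?_ ?_ ?_ ?_ ?_
  · intro t
    show 0 ≤ (if t < t₀ then 41 * max 1 (Real.log ((h : ℝ) / t)) else K₀)
    split_ifs
    · have : (1 : ℝ) ≤ max 1 (Real.log ((h : ℝ) / t)) := le_max_left _ _
      positivity
    · exact hK₀
  · intro m
    show 0 ≤ K₀ + (if m < 2 * t₀ then 41 * max 1 (Real.log (2 * (h : ℝ) / m)) else 0)
    split_ifs
    · have : (1 : ℝ) ≤ max 1 (Real.log (2 * (h : ℝ) / m)) := le_max_left _ _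
      positivity
    · linarith
  · intro m t hmt htm
    show (if t < t₀ then 41 * max 1 (Real.log ((h : ℝ) / t)) else K₀)
      ≤ K₀ + (if m < 2 * t₀ then 41 * max 1 (Real.log (2 * (h : ℝ) / m)) else 0)
    by_cases ht : t < t₀
    · have hm : m < 2 * t₀ := by omega
      rw [if_pos ht, if_pos hm]
      have ht1 : 1 ≤ t := by omega
      have htr : (0 : ℝ) < (t : ℝ) := by exact_mod_cast ht1
      have hmr : (0 : ℝ) < (m : ℝ) := by exact_mod_cast (lt_of_lt_of_le ht1 htm)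
      have hmt' : (m : ℝ) ≤ 2 * (t : ℝ) := by exact_mod_cast hmt.le
      have hle : (h : ℝ) / t ≤ 2 * (h : ℝ) / m := by
        rw [div_le_div_iff₀ htr hmr]
        nlinarith
      have hlog : Real.log ((h : ℝ) / t) ≤ Real.log (2 * (h : ℝ) / m) :=
        Real.log_le_log (by positivity) hle
      have := max_le_max (le_refl (1 : ℝ)) hlog
      linarith
    · rw [if_neg ht]
      split_ifs
      · have : (1 : ℝ) ≤ max 1 (Real.log (2 * (h : ℝ) / m)) := le_max_left _ _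
        have h41 : (0 : ℝ) ≤ 41 * max 1 (Real.log (2 * (h : ℝ) / m)) := by positivity
        linarith
      · linarith
  · exact hsum
  · intro T hT
    show ((Finset.univ.filter (fun f : W ↪ Fin n => T ⊆ PP.slotImage H f)).card : ℝ)
      ≤ ((if T.card < t₀ then 41 * max 1 (Real.log ((h : ℝ) / T.card)) else K₀) * p) ^ T.card
        * (Fintype.card (W ↪ Fin n) : ℝ)
    by_cases ht : T.card < t₀
    · rw [if_pos ht]
      exact spread_of_hE n W H hW hH p hp0 hE T hT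
    · rw [if_neg ht]
      exact hhuge T (not_lt.1 ht)

/-- `e^50 ≥ 5.18 · 10^21`. -/
theorem exp_fifty_ge' : (518 : ℝ) * 10 ^ 19 ≤ Real.exp 50 := by
  have h1 : (2.7182818283 : ℝ) ≤ Real.exp 1 := by
    have := Real.exp_one_gt_d9
    linarith
  have h2 : Real.exp 50 = Real.exp 1 ^ 50 := by
    rw [← Real.exp_nat_mul]
    norm_num
  rw [h2]
  calc (518 : ℝ) * 10 ^ 19 ≤ (2.7182818283 : ℝ) ^ 50 := by norm_num
    _ ≤ Real.exp 1 ^ 50 := pow_le_pow_left₀ (by norm_num) h1 50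

/-- **S0076 from a spread bound for the patterns with at least `2^e` edges** (conditional glue):
it suffices that `K₀ + 28.5 (e + 2) ≤ 1.6576 · 10^23`; e.g. `e = 3·10^21`, `K₀ = 8·10^22`,
or `e = 10^21`, `K₀ = 1.37·10^23`. -/
theorem s0076_of_hugeSpread_pow (n : ℕ) (hn : 2 ≤ n) (W : Type) [Fintype W] [DecidableEq W]
    (H : SimpleGraph W) [DecidableRel H.Adj] (hW : Fintype.card W ≤ n)
    (hH : 1 ≤ H.edgeFinset.card) (p : ℝ) (hp0 : 0 ≤ p) (hp1 : p ≤ 1)
    (hE : ∀ F : H.Subgraph, (1 : ℝ) / 2 ≤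
      Crest.CombinatoricsR.RandomGraph.gnpExpect n p (fun G => (G.copyCount F.coe : ℝ)))
    (e : ℕ) (K₀ : ℝ) (hK₀ : 0 ≤ K₀)
    (hnum : K₀ + 28.5 * ((e : ℝ) + 2) ≤ 16576 * 10 ^ 19)
    (hhuge : ∀ T : Finset (EdgeSlot n), 2 ^ e ≤ T.card →
      ((Finset.univ.filter (fun f : W ↪ Fin n => T ⊆ PP.slotImage H f)).card : ℝ)
        ≤ (K₀ * p) ^ T.card * (Fintype.card (W ↪ Fin n) : ℝ)) :
    (1 : ℝ) / 2 ≤ Crest.CombinatoricsR.RandomGraph.gnpProb n
      (min 1 (2048 * Real.exp 50 * p * (1 + Real.logb 2 (H.edgeFinset.card : ℝ))))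
      {G | H.IsContained G} := by
  refine s0076_of_hugeSpread n hn W H hW hH p hp0 hp1 hE (2 ^ e) K₀ hK₀ ?_ hhuge
  have hlog : Nat.log 2 (2 * 2 ^ e) = e + 1 := by
    rw [← pow_succ']
    exact Nat.log_pow (by norm_num) (e + 1)
  rw [hlog]
  have h50 := exp_fifty_ge'
  push_cast
  linarith

/-- The same in the permutation form used by the log-spread squad: it suffices to bound, for
one (equivalently every) embedding `f₀` of `H` and every set `T` of at least `2^e` slots, the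
number of permutations `σ` of `Fin n` with `T ⊆ σ • slotImage H f₀` by `n! (K₀ p)^|T|`. -/
theorem s0076_of_hugeSpread_perm (n : ℕ) (hn : 2 ≤ n) (W : Type) [Fintype W] [DecidableEq W]
    (H : SimpleGraph W) [DecidableRel H.Adj] (hW : Fintype.card W ≤ n)
    (hH : 1 ≤ H.edgeFinset.card) (p : ℝ) (hp0 : 0 ≤ p) (hp1 : p ≤ 1)
    (hE : ∀ F : H.Subgraph, (1 : ℝ) / 2 ≤
      Crest.CombinatoricsR.RandomGraph.gnpExpect n p (fun G => (G.copyCount F.coe : ℝ)))
    (e : ℕ) (K₀ : ℝ) (hK₀ : 0 ≤ K₀)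
    (hnum : K₀ + 28.5 * ((e : ℝ) + 2) ≤ 16576 * 10 ^ 19)
    (hhuge : ∀ (f₀ : W ↪ Fin n) (T : Finset (EdgeSlot n)), 2 ^ e ≤ T.card →
      ((Finset.univ.filter
          (fun σ : Equiv.Perm (Fin n) => T ⊆ σ • PP.slotImage H f₀)).card : ℝ)
        ≤ (n.factorial : ℝ) * (K₀ * p) ^ T.card) :
    (1 : ℝ) / 2 ≤ Crest.CombinatoricsR.RandomGraph.gnpProb n
      (min 1 (2048 * Real.exp 50 * p * (1 + Real.logb 2 (H.edgeFinset.card : ℝ))))
      {G | H.IsContained G} := by
  classical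
  refine s0076_of_hugeSpread_pow n hn W H hW hH p hp0 hp1 hE e K₀ hK₀ hnum ?_
  intro T hT
  have hne0 : Nonempty (W ↪ Fin n) :=
    Function.Embedding.nonempty_of_card_le (by simpa using hW)
  obtain ⟨f₀⟩ := hne0
  have hls := hhuge f₀ T hT
  have hce := card_perm_embed H f₀ T
  have hceR : ((Finset.univ.filter
        (fun σ : Equiv.Perm (Fin n) => T ⊆ σ • PP.slotImage H f₀)).card : ℝ)
        * (Fintype.card (W ↪ Fin n) : ℝ)
      = ((Finset.univ.filter (fun f : W ↪ Fin n => T ⊆ PP.slotImage H f)).card : ℝ)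
        * (n.factorial : ℝ) := by
    exact_mod_cast hce
  have hfact : (0 : ℝ) < (n.factorial : ℝ) := by exact_mod_cast Nat.factorial_pos n
  have hemb : (0 : ℝ) ≤ (Fintype.card (W ↪ Fin n) : ℝ) := by positivity
  have h1 : ((Finset.univ.filter (fun f : W ↪ Fin n => T ⊆ PP.slotImage H f)).card : ℝ)
        * (n.factorial : ℝ)
      ≤ ((K₀ * p) ^ T.card * (Fintype.card (W ↪ Fin n) : ℝ)) * (n.factorial : ℝ) := by
    rw [← hceR]
    calc ((Finset.univ.filter
            (fun σ : Equiv.Perm (Fin n) => T ⊆ σ • PP.slotImage H f₀)).card : ℝ)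
          * (Fintype.card (W ↪ Fin n) : ℝ)
        ≤ ((n.factorial : ℝ) * (K₀ * p) ^ T.card) * (Fintype.card (W ↪ Fin n) : ℝ) :=
          mul_le_mul_of_nonneg_right hls hemb
      _ = _ := by ring
  exact le_of_mul_le_mul_right h1 hfact

end Crest.Agent.Helper52.S0076
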