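import Mathlib
import Crest.Agent.Helper52.PP.Count

/-!
# Counting the slots inside a vertex set (helper52; conditional package for row 55)

`card_pairs_le` (leaf (M6) of helper77's closure formalisation, board #6712): at most `|U|²`
edge slots have both ends in the vertex set `U`.  Nothing here proves a spread bound.
-/

set_option autoImplicit false
set_option linter.unusedSectionVars false
set_option linter.unusedVariables false

namespace Crest.Agent.Helper52.S0076

open Finset Crest.CombinatoricsR.RandomGraph Crest.Agent.Helper52.PP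

variable {n : ℕ}

/-- **(M6)** At most `|U|²` slots have both ends in `U` (any decidability instance). -/
theorem card_pairs_le (U : Finset (Fin n))
    [DecidablePred (fun t : EdgeSlot n => ∀ x ∈ t.1, x ∈ U)] :
    (Finset.univ.filter (fun t : EdgeSlot n => ∀ x ∈ t.1, x ∈ U)).card ≤ U.card ^ 2 := by
  classical
  have hinj : Set.InjOn (Subtype.val : EdgeSlot n → Sym2 (Fin n))
      (↑(Finset.univ.filter (fun t : EdgeSlot n => ∀ x ∈ t.1, x ∈ U)) : Set (EdgeSlot n)) :=
    fun a _ b _ h => Subtype.ext h
  rw [← Finset.card_image_of_injOn hinj]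
  have hsub : (Finset.univ.filter (fun t : EdgeSlot n => ∀ x ∈ t.1, x ∈ U)).image Subtype.val ⊆
      (U ×ˢ U).image (fun q : Fin n × Fin n => s(q.1, q.2)) := by
    intro z hz
    obtain ⟨t, ht, rfl⟩ := Finset.mem_image.1 hz
    rw [Finset.mem_filter] at ht
    obtain ⟨t, htd⟩ := t
    induction t using Sym2.ind with
    | _ a b =>
      rw [Finset.mem_image]
      exact ⟨(a, b), Finset.mem_product.2
        ⟨ht.2 a (Sym2.mem_mk_left a b), ht.2 b (Sym2.mem_mk_right a b)⟩, rfl⟩
  calc ((Finset.univ.filter (fun t : EdgeSlot n => ∀ x ∈ t.1, x ∈ U)).image Subtype.val).card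
      ≤ ((U ×ˢ U).image (fun q : Fin n × Fin n => s(q.1, q.2))).card := Finset.card_le_card hsub
    _ ≤ (U ×ˢ U).card := Finset.card_image_le
    _ = U.card ^ 2 := by rw [Finset.card_product, sq]

end Crest.Agent.Helper52.S0076
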