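import Mathlib
import Crest.Agent.Helper77.S0076.ClosureDefs
import Crest.Agent.Helper77.S0076.Kraft

/-!
# Star-closure leaves (helper52; conditional package for row 55)

Two leaves requested by helper77 (board #6669) for the formalisation of helper68's closure-type
packing (`notes/s0076_helper68_closure.md`, spread lemma for `n p ≤ 1`):

* `connFrom_image` : the image of a connected pattern under an embedding is connected from the
  image of any of its vertices, in the closure form `ConnFrom` of `Helper77/S0076/Kraft.lean`,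
  for the host neighbourhood function `nb E₀`;
* `degsum_le`      : the host degrees over a vertex set `B` sum to at most twice the size of the
  star closure of `B`.

Nothing here proves a spread bound.
-/

set_option autoImplicit false
set_option linter.unusedSectionVars false
set_option linter.unusedVariables false

namespace Crest.Agent.Helper52.S0076

open Finset Crest.CombinatoricsR.RandomGraph Crest.Agent.Helper52.PP
open Crest.Agent.Helper77.S0076
open scoped Classical

variable {n : ℕ}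

/-- The host neighbourhood of `u`. -/
noncomputable def nb (E₀ : Finset (EdgeSlot n)) (u : Fin n) : Finset (Fin n) :=
  Finset.univ.filter (fun y => hAdj E₀ u y)

lemma mem_nb (E₀ : Finset (EdgeSlot n)) (u y : Fin n) : y ∈ nb E₀ u ↔ hAdj E₀ u y := by
  unfold nb
  rw [Finset.mem_filter]
  exact ⟨fun h => h.2, fun h => ⟨Finset.mem_univ _, h⟩⟩

/-- An embedding sends the two ends of a pattern slot to host-adjacent vertices. -/
lemma hAdj_of_mem_embs (E₀ T : Finset (EdgeSlot n)) (φ : Fin n → Fin n) (hφ : φ ∈ embs E₀ T)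
    (t : EdgeSlot n) (ht : t ∈ T) (u v : Fin n) (hu : u ∈ t.1) (hv : v ∈ t.1) (huv : u ≠ v) :
    hAdj E₀ (φ u) (φ v) := by
  obtain ⟨s, hs, hst⟩ := ((mem_embs E₀ T φ).1 hφ).2.2 t ht
  have h1 : t.1 = s(u, v) := (Sym2.mem_and_mem_iff huv).1 ⟨hu, hv⟩
  refine ⟨s, hs, ?_⟩
  rw [hst, h1, Sym2.map_mk]

/-- **(Q3)** The image of a connected pattern under an embedding is connected from the image
of any pattern vertex. -/
theorem connFrom_image (E₀ T : Finset (EdgeSlot n)) (hT : PatConn T) (φ : Fin n → Fin n)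
    (hφ : φ ∈ embs E₀ T) (x₀ : Fin n) (hx₀ : x₀ ∈ vset T) :
    ConnFrom (nb E₀) (φ x₀) ((vset T).image φ) := by
  refine ⟨Finset.mem_image_of_mem φ hx₀, ?_⟩
  intro R hRB hwR hclosed
  -- closedness along the slots of `T`
  have hstep : ∀ t ∈ T, ∀ u ∈ t.1, ∀ v ∈ t.1, φ u ∈ R → φ v ∈ R := by
    intro t ht u hu v hv huR
    by_cases huv : u = v
    · rw [← huv]; exact huR
    · have hadj := hAdj_of_mem_embs E₀ T φ hφ t ht u v hu hv huv
      have hvB : φ v ∈ (vset T).image φ :=
        Finset.mem_image_of_mem φ ((mem_vset T v).2 ⟨t, ht, hv⟩)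
      exact hclosed (φ u) huR (φ v) hvB ((mem_nb E₀ (φ u) (φ v)).2 hadj)
  by_contra hne
  -- a vertex of the image outside `R`
  have hex : ∃ b ∈ (vset T).image φ, b ∉ R := by
    by_contra hcon
    apply hne
    apply Finset.Subset.antisymm hRB
    intro b hb
    by_contra hbR
    exact hcon ⟨b, hb, hbR⟩
  obtain ⟨b, hbB, hbR⟩ := hex
  obtain ⟨x, hx, rfl⟩ := Finset.mem_image.1 hbB
  -- the slots of `T` with all ends mapped into `R`
  set T₁ : Finset (EdgeSlot n) := T.filter (fun t => ∀ u ∈ t.1, φ u ∈ R) with hT₁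
  have hT₁sub : T₁ ⊆ T := Finset.filter_subset _ _
  have hT₁ne : T₁.Nonempty := by
    obtain ⟨t, ht, hxt⟩ := (mem_vset T x₀).1 hx₀
    refine ⟨t, ?_⟩
    rw [hT₁, Finset.mem_filter]
    exact ⟨ht, fun u hu => hstep t ht x₀ hxt u hu hwR⟩
  have hT₂ne : (T \ T₁).Nonempty := by
    obtain ⟨t, ht, hxt⟩ := (mem_vset T x).1 hx
    refine ⟨t, ?_⟩
    rw [Finset.mem_sdiff]
    refine ⟨ht, ?_⟩
    intro htT₁
    rw [hT₁, Finset.mem_filter] at htT₁
    exact hbR (htT₁.2 x hxt)
  apply hT.2 T₁ hT₁sub hT₁ne hT₂ne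
  rw [Finset.disjoint_left]
  intro v hv₁ hv₂
  obtain ⟨t₁, ht₁, hvt₁⟩ := (mem_vset T₁ v).1 hv₁
  obtain ⟨t₂, ht₂, hvt₂⟩ := (mem_vset (T \ T₁) v).1 hv₂
  rw [hT₁, Finset.mem_filter] at ht₁
  have hvR : φ v ∈ R := ht₁.2 v hvt₁
  rw [Finset.mem_sdiff] at ht₂
  apply ht₂.2
  rw [hT₁, Finset.mem_filter]
  exact ⟨ht₂.1, fun u hu => hstep t₂ ht₂.1 v hvt₂ u hu hvR⟩

/-- **(Q4)** The host degrees over `B` sum to at most twice the size of the star closure. -/
theorem degsum_le (E₀ : Finset (EdgeSlot n)) (B : Finset (Fin n)) :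
    ∑ u ∈ B, (nb E₀ u).card ≤ 2 * (starCl E₀ B).card := by
  rw [← Finset.card_sigma]
  set P : Finset (Σ _ : Fin n, Fin n) := B.sigma (fun u => nb E₀ u) with hP
  set f : (Σ _ : Fin n, Fin n) → Sym2 (Fin n) := fun q => s(q.1, q.2) with hf
  have h1 : P.card ≤ 2 * (P.image f).card := by
    apply Finset.card_le_mul_card_image
    intro z _
    induction z using Sym2.ind with
    | _ a b =>
      have hsub : P.filter (fun q => f q = s(a, b)) ⊆
          ({⟨a, b⟩, ⟨b, a⟩} : Finset (Σ _ : Fin n, Fin n)) := by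
        intro q hq
        rw [Finset.mem_filter] at hq
        obtain ⟨q1, q2⟩ := q
        have h2 : s(q1, q2) = s(a, b) := hq.2
        rw [Sym2.eq_iff] at h2
        rw [Finset.mem_insert, Finset.mem_singleton]
        rcases h2 with ⟨h3, h4⟩ | ⟨h3, h4⟩
        · left; rw [h3, h4]
        · right; rw [h3, h4]
      exact le_trans (Finset.card_le_card hsub) Finset.card_le_two
  have h2 : (P.image f).card ≤ (starCl E₀ B).card := by
    have hsub : P.image f ⊆ (starCl E₀ B).image Subtype.val := by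
      intro z hz
      obtain ⟨q, hq, rfl⟩ := Finset.mem_image.1 hz
      obtain ⟨u, y⟩ := q
      rw [hP, Finset.mem_sigma] at hq
      obtain ⟨s, hs, hsuy⟩ := (mem_nb E₀ u y).1 hq.2
      rw [Finset.mem_image]
      refine ⟨s, (mem_starCl E₀ B s).2 ⟨hs, u, hq.1, ?_⟩, hsuy⟩
      rw [hsuy]
      exact Sym2.mem_mk_left u y
    exact le_trans (Finset.card_le_card hsub) Finset.card_image_le
  calc P.card ≤ 2 * (P.image f).card := h1
    _ ≤ 2 * (starCl E₀ B).card := Nat.mul_le_mul_left 2 h2

end Crest.Agent.Helper52.S0076
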