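import Crest.Agent.Helper52.S0076.Huge
import Crest.Agent.Helper52.S0076.GL
import Crest.Agent.Helper52.PP.Count

/-!
# S0076 from the per-vertex spread lemma (VSL) (helper52; conditional glue, row 55)

The thinkers' target for the last regime is a bound with a constant per VERTEX of the pattern,

  `inj(J,H) ≤ A · K^{v(J)} · p^{e(J)} · (n)_{v(J)}`        (VSL)

(`inj` = number of injective homomorphisms of the pattern `J` into the host `H`).  Since a
pattern without isolated vertices has `v(J) ≤ 2 e(J)`, (VSL) gives the spread bound with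
constant `A K²` per edge.  This file provides the glue:

* `s0076_of_hugeVSL` / `s0076_of_hugeVSL_graph` : the conclusion of S0076 from its hypotheses
  and (VSL) for the patterns with at least `2^e` edges, as soon as
  `A K² + 28.5 (e + 2) ≤ 1.6576 · 10^23` (e.g. `e = 3·10^21`, `A = 2`, `K = 2·10^11`);
* `s0076_of_VSL_graph` : the same from (VSL) for all patterns, `A K² ≤ 32 e^50`
  (e.g. `A = 2`, `K = 4 e^25`).

The `_graph` versions state (VSL) for abstract finite simple graphs `J`.
(VSL) itself is NOT proved here: this is conditional infrastructure.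
-/

set_option autoImplicit false
set_option linter.unusedSectionVars false

namespace Crest.Agent.Helper52.S0076

open Finset Crest.CombinatoricsR.RandomGraph Crest.Agent.Helper68
open Crest.Agent.Helper52.PP (vset mem_vset injCount IsHom)

variable {n : ℕ} {W : Type} [Fintype W] [DecidableEq W]

/-- A set of `t` slots covers at most `2 t` vertices. -/
lemma card_vset_le (T : Finset (EdgeSlot n)) : (vset T).card ≤ 2 * T.card := by
  classical
  have hsub : vset T ⊆ T.biUnion (fun s => s.1.toFinset) := by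
    intro v hv
    obtain ⟨s, hs, hvs⟩ := (mem_vset T v).1 hv
    rw [Finset.mem_biUnion]
    exact ⟨s, hs, Sym2.mem_toFinset.2 hvs⟩
  calc (vset T).card ≤ (T.biUnion (fun s => s.1.toFinset)).card := Finset.card_le_card hsub
    _ ≤ ∑ s ∈ T, (s.1.toFinset).card := Finset.card_biUnion_le
    _ = ∑ _s ∈ T, 2 := by
        refine Finset.sum_congr rfl (fun s _ => ?_)
        exact Sym2.card_toFinset_of_not_isDiag s.1 s.2
    _ = 2 * T.card := by rw [Finset.sum_const, smul_eq_mul, Nat.mul_comm]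

/-- (VSL) for one set of slots gives the spread bound with constant `A K²` per slot. -/
lemma injCount_le_of_vsl (H : SimpleGraph W) [DecidableRel H.Adj] (T : Finset (EdgeSlot n))
    (hT : 1 ≤ T.card) (p : ℝ) (hp0 : 0 ≤ p) (A K : ℝ) (hA : 1 ≤ A) (hK : 1 ≤ K)
    (h : (injCount H T : ℝ)
      ≤ A * K ^ (vset T).card * p ^ T.card * (n.descFactorial (vset T).card : ℝ)) :
    (injCount H T : ℝ)
      ≤ (A * K ^ 2 * p) ^ T.card * (n.descFactorial (vset T).card : ℝ) := by
  have hD : (0 : ℝ) ≤ (n.descFactorial (vset T).card : ℝ) := Nat.cast_nonneg _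
  have hA0 : (0 : ℝ) ≤ A := by linarith
  have hK0 : (0 : ℝ) ≤ K := by linarith
  have h1 : A ≤ A ^ T.card := by
    calc A = A ^ 1 := (pow_one A).symm
      _ ≤ A ^ T.card := pow_le_pow_right₀ hA hT
  have h2 : K ^ (vset T).card ≤ (K ^ 2) ^ T.card := by
    rw [← pow_mul]
    exact pow_le_pow_right₀ hK (card_vset_le T)
  have hp : (0 : ℝ) ≤ p ^ T.card := pow_nonneg hp0 _
  have h3 : A * K ^ (vset T).card * p ^ T.card ≤ (A * K ^ 2 * p) ^ T.card := by
    rw [mul_pow, mul_pow]
    have hK2 : (0 : ℝ) ≤ (K ^ 2) ^ T.card := by positivity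
    have : A * K ^ (vset T).card ≤ A ^ T.card * (K ^ 2) ^ T.card :=
      mul_le_mul h1 h2 (by positivity) (by positivity)
    exact mul_le_mul_of_nonneg_right this hp
  calc (injCount H T : ℝ)
      ≤ A * K ^ (vset T).card * p ^ T.card * (n.descFactorial (vset T).card : ℝ) := h
    _ ≤ (A * K ^ 2 * p) ^ T.card * (n.descFactorial (vset T).card : ℝ) :=
        mul_le_mul_of_nonneg_right h3 hD

/-- **S0076 from (VSL) for huge patterns** (conditional glue; `hvsl` is NOT proved anywhere):
a per-vertex bound `inj(T,H) ≤ A K^{v_T} p^{|T|} (n)_{v_T}` for the sets `T` of at least `2^e`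
slots suffices as soon as `A K² + 28.5 (e + 2) ≤ 1.6576 · 10^23`. -/
theorem s0076_of_hugeVSL (n : ℕ) (hn : 2 ≤ n) (W : Type) [Fintype W] [DecidableEq W]
    (H : SimpleGraph W) [DecidableRel H.Adj] (hW : Fintype.card W ≤ n)
    (hH : 1 ≤ H.edgeFinset.card) (p : ℝ) (hp0 : 0 ≤ p) (hp1 : p ≤ 1)
    (hE : ∀ F : H.Subgraph, (1 : ℝ) / 2 ≤
      Crest.CombinatoricsR.RandomGraph.gnpExpect n p (fun G => (G.copyCount F.coe : ℝ)))
    (e : ℕ) (A K : ℝ) (hA : 1 ≤ A) (hK : 1 ≤ K)
    (hnum : A * K ^ 2 + 28.5 * ((e : ℝ) + 2) ≤ 16576 * 10 ^ 19)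
    (hvsl : ∀ T : Finset (EdgeSlot n), 2 ^ e ≤ T.card →
      (injCount H T : ℝ)
        ≤ A * K ^ (vset T).card * p ^ T.card * (n.descFactorial (vset T).card : ℝ)) :
    (1 : ℝ) / 2 ≤ Crest.CombinatoricsR.RandomGraph.gnpProb n
      (min 1 (2048 * Real.exp 50 * p * (1 + Real.logb 2 (H.edgeFinset.card : ℝ))))
      {G | H.IsContained G} := by
  classical
  have hK0 : (0 : ℝ) ≤ A * K ^ 2 := by positivity
  refine s0076_of_hugeSpread_pow n hn W H hW hH p hp0 hp1 hE e (A * K ^ 2) hK0 hnum ?_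
  intro T hT
  have hT1 : 1 ≤ T.card := le_trans (Nat.one_le_two_pow) hT
  have h1 := injCount_le_of_vsl H T hT1 p hp0 A K hA hK (hvsl T hT)
  have h2 := Crest.Agent.Helper52.PP.spread_of_injCount H T _ h1
  have hset : (Finset.univ.filter (fun f : W ↪ Fin n => T ⊆ PP.slotImage H f))
      = (Finset.univ.filter
          (fun f : W ↪ Fin n => T ⊆ Crest.Agent.Helper52.PP.slots H f)) := by
    apply Finset.filter_congr
    intro f _
    rw [slotImage_eq_slots]
  rw [hset]
  exact h2

/-! ## (VSL) for abstract patterns -/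

/-- The number of injective homomorphisms of a finite simple graph `J` into `H`. -/
noncomputable def injHom {V : Type} (J : SimpleGraph V) (H : SimpleGraph W) : ℕ :=
  Nat.card {g : V ↪ W // ∀ a b, J.Adj a b → H.Adj (g a) (g b)}

/-- The graph of a set of slots on the vertices it covers. -/
def slotGraph (T : Finset (EdgeSlot n)) : SimpleGraph {v // v ∈ vset T} where
  Adj a b := ∃ s ∈ T, s.1 = s(a.1, b.1)
  symm := ⟨fun a b ⟨s, hs, h⟩ => ⟨s, hs, by rw [h, Sym2.eq_swap]⟩⟩
  loopless := ⟨fun a ⟨s, _, h⟩ => s.2 (by rw [h]; exact Sym2.mk_isDiag_iff.2 rfl)⟩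

lemma injHom_slotGraph (H : SimpleGraph W) (T : Finset (EdgeSlot n)) :
    injHom (slotGraph T) H = injCount H T := rfl

/-- The slot graph of `T` has exactly `|T|` edges. -/
lemma card_edgeFinset_slotGraph (T : Finset (EdgeSlot n)) [DecidableRel (slotGraph T).Adj] :
    (slotGraph T).edgeFinset.card = T.card := by
  classical
  have hinj : Function.Injective
      (Sym2.map (Subtype.val : {v // v ∈ vset T} → Fin n)) :=
    Sym2.map.injective Subtype.val_injective
  have himg : (slotGraph T).edgeFinset.image (Sym2.map Subtype.val)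
      = T.image Subtype.val := by
    ext z
    rw [Finset.mem_image, Finset.mem_image]
    constructor
    · rintro ⟨ed, hed, rfl⟩
      induction ed using Sym2.ind with
      | _ a b =>
        rw [SimpleGraph.mem_edgeFinset, SimpleGraph.mem_edgeSet] at hed
        obtain ⟨s, hs, h⟩ := hed
        exact ⟨s, hs, by rw [h]; rfl⟩
    · rintro ⟨s, hs, rfl⟩
      obtain ⟨z, hz⟩ := s
      induction z using Sym2.ind with
      | _ x y =>
        have hx : x ∈ vset T := (mem_vset T x).2 ⟨⟨s(x, y), hz⟩, hs, Sym2.mem_mk_left x y⟩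
        have hy : y ∈ vset T := (mem_vset T y).2 ⟨⟨s(x, y), hz⟩, hs, Sym2.mem_mk_right x y⟩
        refine ⟨s(⟨x, hx⟩, ⟨y, hy⟩), ?_, rfl⟩
        rw [SimpleGraph.mem_edgeFinset, SimpleGraph.mem_edgeSet]
        exact ⟨⟨s(x, y), hz⟩, hs, rfl⟩
  calc (slotGraph T).edgeFinset.card
      = ((slotGraph T).edgeFinset.image (Sym2.map Subtype.val)).card :=
        (Finset.card_image_of_injective _ hinj).symm
    _ = (T.image Subtype.val).card := by rw [himg]
    _ = T.card := Finset.card_image_of_injective _ Subtype.val_injective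

/-- **S0076 from (VSL) for huge abstract patterns** (conditional glue; `hvsl` is NOT proved
anywhere): it suffices that every finite simple graph `J` with at least `2^e` edges has at most
`A K^{v(J)} p^{e(J)} (n)_{v(J)}` injective homomorphisms into `H`, where
`A K² + 28.5 (e + 2) ≤ 1.6576 · 10^23`. -/
theorem s0076_of_hugeVSL_graph (n : ℕ) (hn : 2 ≤ n) (W : Type) [Fintype W] [DecidableEq W]
    (H : SimpleGraph W) [DecidableRel H.Adj] (hW : Fintype.card W ≤ n)
    (hH : 1 ≤ H.edgeFinset.card) (p : ℝ) (hp0 : 0 ≤ p) (hp1 : p ≤ 1)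
    (hE : ∀ F : H.Subgraph, (1 : ℝ) / 2 ≤
      Crest.CombinatoricsR.RandomGraph.gnpExpect n p (fun G => (G.copyCount F.coe : ℝ)))
    (e : ℕ) (A K : ℝ) (hA : 1 ≤ A) (hK : 1 ≤ K)
    (hnum : A * K ^ 2 + 28.5 * ((e : ℝ) + 2) ≤ 16576 * 10 ^ 19)
    (hvsl : ∀ (V : Type) [Fintype V] [DecidableEq V] (J : SimpleGraph V) [DecidableRel J.Adj],
      2 ^ e ≤ J.edgeFinset.card →
      (injHom J H : ℝ) ≤ A * K ^ Fintype.card V * p ^ J.edgeFinset.card
        * (n.descFactorial (Fintype.card V) : ℝ)) :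
    (1 : ℝ) / 2 ≤ Crest.CombinatoricsR.RandomGraph.gnpProb n
      (min 1 (2048 * Real.exp 50 * p * (1 + Real.logb 2 (H.edgeFinset.card : ℝ))))
      {G | H.IsContained G} := by
  classical
  refine s0076_of_hugeVSL n hn W H hW hH p hp0 hp1 hE e A K hA hK hnum ?_
  intro T hT
  have h := hvsl {v // v ∈ vset T} (slotGraph T)
    (by rw [card_edgeFinset_slotGraph]; exact hT)
  rw [card_edgeFinset_slotGraph, injHom_slotGraph, Fintype.card_coe] at h
  exact h

/-- The numerical instance `e = 3·10^21`, `A = 2`, `K = 2·10^11`. -/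
theorem s0076_of_hugeVSL_graph' (n : ℕ) (hn : 2 ≤ n) (W : Type) [Fintype W] [DecidableEq W]
    (H : SimpleGraph W) [DecidableRel H.Adj] (hW : Fintype.card W ≤ n)
    (hH : 1 ≤ H.edgeFinset.card) (p : ℝ) (hp0 : 0 ≤ p) (hp1 : p ≤ 1)
    (hE : ∀ F : H.Subgraph, (1 : ℝ) / 2 ≤
      Crest.CombinatoricsR.RandomGraph.gnpExpect n p (fun G => (G.copyCount F.coe : ℝ)))
    (hvsl : ∀ (V : Type) [Fintype V] [DecidableEq V] (J : SimpleGraph V) [DecidableRel J.Adj],
      2 ^ (3 * 10 ^ 21) ≤ J.edgeFinset.card →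
      (injHom J H : ℝ) ≤ 2 * (2 * 10 ^ 11) ^ Fintype.card V * p ^ J.edgeFinset.card
        * (n.descFactorial (Fintype.card V) : ℝ)) :
    (1 : ℝ) / 2 ≤ Crest.CombinatoricsR.RandomGraph.gnpProb n
      (min 1 (2048 * Real.exp 50 * p * (1 + Real.logb 2 (H.edgeFinset.card : ℝ))))
      {G | H.IsContained G} :=
  s0076_of_hugeVSL_graph n hn W H hW hH p hp0 hp1 hE (3 * 10 ^ 21) 2 (2 * 10 ^ 11)
    (by norm_num) (by norm_num) (by norm_num) hvsl

/-- **S0076 from (VSL) for all abstract patterns**, `A K² ≤ 32 e^50` (conditional glue; the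
hypothesis `hE` of S0076 is not even needed here, it is what (VSL) has to be proved from). -/
theorem s0076_of_VSL_graph (n : ℕ) (W : Type) [Fintype W] [DecidableEq W]
    (H : SimpleGraph W) [DecidableRel H.Adj] (hW : Fintype.card W ≤ n)
    (p : ℝ) (hp0 : 0 ≤ p)
    (A K : ℝ) (hA : 1 ≤ A) (hK : 1 ≤ K) (hnum : A * K ^ 2 ≤ 32 * Real.exp 50)
    (hvsl : ∀ (V : Type) [Fintype V] [DecidableEq V] (J : SimpleGraph V) [DecidableRel J.Adj],
      1 ≤ J.edgeFinset.card →
      (injHom J H : ℝ) ≤ A * K ^ Fintype.card V * p ^ J.edgeFinset.card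
        * (n.descFactorial (Fintype.card V) : ℝ)) :
    (1 : ℝ) / 2 ≤ Crest.CombinatoricsR.RandomGraph.gnpProb n
      (min 1 (2048 * Real.exp 50 * p * (1 + Real.logb 2 (H.edgeFinset.card : ℝ))))
      {G | H.IsContained G} := by
  classical
  refine Crest.Agent.Helper52.PP.s0076_of_injCount n W H hW p hp0 ?_
  intro T hT
  have hT1 : 1 ≤ T.card := Finset.card_pos.2 hT
  have h := hvsl {v // v ∈ vset T} (slotGraph T)
    (by rw [card_edgeFinset_slotGraph]; exact hT1)
  rw [card_edgeFinset_slotGraph, injHom_slotGraph, Fintype.card_coe] at h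
  have h1 := injCount_le_of_vsl H T hT1 p hp0 A K hA hK h
  have hD : (0 : ℝ) ≤ (n.descFactorial (vset T).card : ℝ) := Nat.cast_nonneg _
  have hpow : (A * K ^ 2 * p) ^ T.card ≤ (32 * Real.exp 50 * p) ^ T.card := by
    apply pow_le_pow_left₀ (by positivity)
    exact mul_le_mul_of_nonneg_right hnum hp0
  calc (injCount H T : ℝ)
      ≤ (A * K ^ 2 * p) ^ T.card * (n.descFactorial (vset T).card : ℝ) := h1
    _ ≤ (32 * Real.exp 50 * p) ^ T.card * (n.descFactorial (vset T).card : ℝ) :=
        mul_le_mul_of_nonneg_right hpow hD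

end Crest.Agent.Helper52.S0076
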